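import Vale.Agent.P097.H929.World
import Vale.Agent.P097.H85.Drop

/-! # P097 / case [c] / GLOB, drop half: the first drop, uniformly over a compact set of labels -/

set_option linter.all false

open scoped ComplexConjugate Topology
open Filter Metric Set Complex MeasureTheory

namespace Vale.Agent.P097.H525

open Vale.Agent.P097.H85 Vale.Agent.P097.H929

theorem exists_min (J : ℕ) {f : ℕ → ℝ} (hf : ∀ i ≤ J, 0 < f i) : ∃ x > 0, ∀ i ≤ J, x ≤ f i := by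
  induction J with
  | zero => exact ⟨f 0, hf 0 le_rfl, fun i hi => by rw [Nat.le_zero.1 hi]⟩
  | succ J ih =>
    obtain ⟨x, hx, h⟩ := ih fun i hi => hf i (by omega)
    refine ⟨min x (f (J + 1)), lt_min hx (hf _ le_rfl), fun i hi => ?_⟩
    rcases Nat.lt_or_ge i (J + 1) with h1 | h1
    · exact (min_le_left _ _).trans (h i (by omega))
    · have h2 : i = J + 1 := by omega
      rw [h2]
      exact min_le_right _ _

theorem exists_max (J : ℕ) (f : ℕ → ℝ) : ∃ x, ∀ i ≤ J, f i ≤ x := by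
  induction J with
  | zero => exact ⟨f 0, fun i hi => by rw [Nat.le_zero.1 hi]⟩
  | succ J ih =>
    obtain ⟨x, h⟩ := ih
    refine ⟨max x (f (J + 1)), fun i hi => ?_⟩
    rcases Nat.lt_or_ge i (J + 1) with h1 | h1
    · exact (h i (by omega)).trans (le_max_left _ _)
    · have h2 : i = J + 1 := by omega
      rw [h2]
      exact le_max_right _ _

theorem cmp_mono {M : Set (ℂ × ℂ)} {b m : ℝ} {Ψ : ℂ → ℂ} {u ρ ρ' : ℝ} {P₀ : ℂ} {c k c₀ ε : ℝ}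
    (h : Cmp M b m Ψ u ρ P₀ c k c₀ ε) (hρ : ρ' ≤ ρ) : Cmp M b m Ψ u ρ' P₀ c k c₀ ε :=
  ⟨h.hol.mono fun w hw => ⟨hw.1.trans_le hρ, hw.2.1, hw.2.2.trans_le hρ⟩,
    fun w h1 h2 h3 => h.bdd w (h1.trans_le hρ) h2 (h3.trans_le hρ),
    fun t w h1 h2 h3 => h.base t w (h1.trans_le hρ) h2 (h3.trans_le hρ),
    fun w h1 h2 h3 => h.nt w (h1.trans_le hρ) h2 (h3.trans_le hρ)⟩

theorem exists_rho {b m : ℝ} {Ψ : ℂ → ℂ} {S : Set ℝ} {P : ℝ → ℂ} {c k : ℝ → ℝ} {J : ℕ}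
    {M : ℕ → Set (ℂ × ℂ)} (hU : ∀ i ≤ J, CmpU (M i) b m Ψ S P c k) {c₀ ε : ℝ} (hc₀ : 0 < c₀)
    (hε : 0 < ε) :
    ∃ ρ > 0, ∀ i ≤ J, ∀ u ∈ S, Cmp (M i) b m Ψ u ρ (P u) (c u) (k u) c₀ ε := by
  have h1 : ∀ i, ∃ ρ : ℝ, i ≤ J → 0 < ρ ∧ ∀ u ∈ S, Cmp (M i) b m Ψ u ρ (P u) (c u) (k u) c₀ ε := by
    intro i
    by_cases hi : i ≤ J
    · obtain ⟨ρ, hρ, h⟩ := (hU i hi).cmp c₀ hc₀ ε hε
      exact ⟨ρ, fun _ => ⟨hρ, h⟩⟩
    · exact ⟨0, fun h => absurd h hi⟩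
  choose ρ hρ using h1
  obtain ⟨x, hx, h⟩ := exists_min J (f := ρ) fun i hi => (hρ i hi).1
  exact ⟨x, hx, fun i hi u hu => cmp_mono ((hρ i hi).2 u hu) (h i hi)⟩

/-- uniform constants of the spread lemma -/
theorem exists_spread {b m : ℝ} {Ψ : ℂ → ℂ} {S : Set ℝ} {P : ℝ → ℂ} {c k : ℝ → ℝ} {J : ℕ}
    {M : ℕ → Set (ℂ × ℂ)} (hM : ∀ i ≤ J, RH b (M i)) (hU : ∀ i ≤ J, CmpU (M i) b m Ψ S P c k)
    (hbm : b < m) (cR : ContinuousOn (fun u => (P u).im) S) (cc : ContinuousOn c S) {δ S₁ : ℝ}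
    (hδ : 0 < δ) (hS₁ : 0 ≤ S₁) : ∃ cb > 0, ∃ Λb : ℝ, ∀ c₀ : ℝ, 0 < c₀ → c₀ ≤ cb → ∀ Λ : ℝ,
      Λb ≤ Λ → ∃ ρ₀ > 0, ∀ i ≤ J, ∀ s : ℝ, |s| ≤ S₁ → ∀ u ∈ S, ∀ y r : ℝ, 0 < r → r < ρ₀ →
        Win b u (P u).im (c u) y r s c₀ Λ ⊆ M i → RegB (M i) b S P c y u (s - δ) := by
  have h1 : ∀ i, ∃ cb Λb : ℝ, i ≤ J → 0 < cb ∧ ∀ c₀ : ℝ, 0 < c₀ → c₀ ≤ cb → ∀ Λ : ℝ, Λb ≤ Λ →
      ∃ ρ₀ > 0, ∀ s : ℝ, |s| ≤ S₁ → ∀ u ∈ S, ∀ y r : ℝ, 0 < r → r < ρ₀ →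
        Win b u (P u).im (c u) y r s c₀ Λ ⊆ M i → RegB (M i) b S P c y u (s - δ) := by
    intro i
    by_cases hi : i ≤ J
    · obtain ⟨cb, hcb, Λb, h⟩ := spread (hM i hi) (hU i hi) hbm cR cc hδ hS₁
      exact ⟨cb, Λb, fun _ => ⟨hcb, h⟩⟩
    · exact ⟨0, 0, fun h => absurd h hi⟩
  choose cb Λb h2 using h1
  obtain ⟨x, hx, h3⟩ := exists_min J (f := cb) fun i hi => (h2 i hi).1
  obtain ⟨z, h4⟩ := exists_max J Λb
  refine ⟨x, hx, z, fun c₀ hc₀ hcx Λ hΛ => ?_⟩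
  have h5 : ∀ i, ∃ ρ₀ : ℝ, i ≤ J → 0 < ρ₀ ∧ ∀ s : ℝ, |s| ≤ S₁ → ∀ u ∈ S, ∀ y r : ℝ, 0 < r →
      r < ρ₀ → Win b u (P u).im (c u) y r s c₀ Λ ⊆ M i → RegB (M i) b S P c y u (s - δ) := by
    intro i
    by_cases hi : i ≤ J
    · obtain ⟨ρ₀, hρ₀, h⟩ := (h2 i hi).2 c₀ hc₀ (hcx.trans (h3 i hi)) Λ ((h4 i hi).trans hΛ)
      exact ⟨ρ₀, fun _ => ⟨hρ₀, h⟩⟩
    · exact ⟨0, fun h => absurd h hi⟩
  choose ρ h6 using h5
  obtain ⟨ρ₀, hρ₀, h7⟩ := exists_min J (f := ρ) fun i hi => (h6 i hi).1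
  exact ⟨ρ₀, hρ₀, fun i hi s hs u hu y r hr hrρ => (h6 i hi).2 s hs u hu y r hr
    (hrρ.trans_le (h7 i hi))⟩

/-- **The first drop, uniformly over a compact set of labels of positive measure.** -/
theorem drop_unif {b m : ℝ} {Ψ : ℂ → ℂ} {S : Set ℝ} {P : ℝ → ℂ} {c k : ℝ → ℝ} {J : ℕ}
    {M : ℕ → Set (ℂ × ℂ)} (hM : ∀ i ≤ J, RH b (M i)) (hU : ∀ i ≤ J, CmpU (M i) b m Ψ S P c k)
    (hbm : b < m) (hmP : ∀ u ∈ S, m ≤ (P u).im) (hS : IsCompact S) (h0 : volume S ≠ 0)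
    (cR : ContinuousOn (fun u => (P u).im) S) (cc : ContinuousOn c S) {K s₀ : ℝ}
    (hKs : K + 1 ≤ s₀)
    (hstart : ∀ c₀ > 0, ∀ Λ : ℝ, ∃ r₀ > 0, ∀ u ∈ S, ∀ y r : ℝ, 0 < r → r < r₀ →
      Win b u (P u).im (c u) y r s₀ c₀ Λ ⊆ M 0)
    (hcone : ∀ η > 0, ∃ ρ > 0, ∀ u ∈ S, ∀ t w : ℂ, |w.re - u| < ρ → |w.im| < ρ → b < t.im →
      t.im < (P u).im + c u * (w.re - u) - K * |w.im| - η * ‖w - u‖ → (t, w) ∈ M J)
    (hwall : ∀ u ∈ S, ∀ y e : ℝ, 0 < e →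
      ((y : ℂ) + (((P u).im + e : ℝ) : ℂ) * I, (u : ℂ)) ∉ M J) :
    ∃ i < J, ∃ S' ⊆ S, IsCompact S' ∧ volume S' ≠ 0 ∧ ∃ y₁ y₂ s s' : ℝ, y₁ < y₂ ∧ s' < s ∧
      (∃ c' Λ' r' : ℝ, 0 < c' ∧ 0 < r' ∧ ∀ u ∈ S', ∀ y : ℝ, y₁ < y → y < y₂ → ∀ r : ℝ, 0 < r →
        r < r' → ¬ Win b u (P u).im (c u) y r s' c' Λ' ⊆ M (i + 1)) ∧
      ∀ u ∈ S', ∀ y : ℝ, y₁ < y → y < y₂ → ∀ δ > 0, RegB (M i) b S' P c y u (s - δ) := by
  obtain ⟨T₀, hT₀⟩ := (hU 0 (Nat.zero_le _)).bd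
  obtain ⟨T, hTd⟩ : ∃ T, T = |T₀| := ⟨_, rfl⟩
  have hT0 : 0 ≤ T := by rw [hTd]; exact abs_nonneg _
  have hT : ∀ u ∈ S, |c u| ≤ T ∧ |k u| ≤ T := by
    intro u hu
    rw [hTd]
    exact ⟨(hT₀ u hu).1.trans (le_abs_self _), (hT₀ u hu).2.trans (le_abs_self _)⟩
  have hJ0 : (0 : ℝ) ≤ J := Nat.cast_nonneg J
  obtain ⟨δ, hδd⟩ : ∃ δ : ℝ, δ = 1 / (16 * (J + 1)) := ⟨_, rfl⟩
  have hδ : 0 < δ := by rw [hδd]; positivity
  have hδe : 16 * δ * J + 16 * δ = 1 := by rw [hδd]; field_simp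
  have hδJ0 : 0 ≤ δ * J := by positivity
  have hδJ : 8 * δ * J ≤ 1 / 2 := by nlinarith
  have hδ16 : δ ≤ 1 / 16 := by nlinarith
  have hδd2 : 8 * δ * J + 2 * δ ≤ 1 := by nlinarith
  obtain ⟨SS, hSSd⟩ : ∃ SS : ℝ, SS = |s₀| + T + 8 * δ * J + δ + |K| := ⟨_, rfl⟩
  have hs₀0 := abs_nonneg s₀
  have hK0 := abs_nonneg K
  have hSS0 : 0 < SS := by rw [hSSd]; nlinarith
  obtain ⟨cb, hcb, Λb, hsp⟩ := exists_spread hM hU hbm cR cc hδ (S₁ := |s₀| + 2) (by linarith)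
  obtain ⟨Λ, hΛd⟩ : ∃ Λ : ℝ, Λ = max Λb (3 + 2 * T + SS + 4 * δ) := ⟨_, rfl⟩
  have hΛb : Λb ≤ Λ := by rw [hΛd]; exact le_max_left _ _
  have hΛ1 : 3 + 2 * T + SS + 4 * δ ≤ Λ := by rw [hΛd]; exact le_max_right _ _
  have hΛ0 : 0 < Λ := by linarith
  obtain ⟨c₀, hc₀, hc1, hc2, hc3, hc4, hc5⟩ : ∃ c₀ : ℝ, 0 < c₀ ∧ 2 * c₀ ≤ cb ∧ c₀ ≤ 1 / 2 ∧
      SS * c₀ ≤ δ ∧ c₀ * Λ ≤ 1 / 2 ∧ (|s₀| + 1 + 3 * |K|) * c₀ ≤ 1 / 32 := by
    refine ⟨min (min (cb / 2) (1 / 2)) (min (δ / SS) (min (1 / (2 * Λ))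
      (1 / (32 * (|s₀| + 1 + 3 * |K|))))), by positivity, ?_, ?_, ?_, ?_, ?_⟩
    · have h1 := (min_le_left (min (cb / 2) (1 / 2)) (min (δ / SS) (min (1 / (2 * Λ))
        (1 / (32 * (|s₀| + 1 + 3 * |K|)))))).trans (min_le_left _ _)
      linarith
    · exact (min_le_left _ _).trans (min_le_right _ _)
    · have h1 := (min_le_right (min (cb / 2) (1 / 2)) (min (δ / SS) (min (1 / (2 * Λ))
        (1 / (32 * (|s₀| + 1 + 3 * |K|)))))).trans (min_le_left _ _)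
      rw [le_div_iff₀ hSS0] at h1
      linarith
    · have h1 := ((min_le_right (min (cb / 2) (1 / 2)) (min (δ / SS) (min (1 / (2 * Λ))
        (1 / (32 * (|s₀| + 1 + 3 * |K|)))))).trans (min_le_right _ _)).trans (min_le_left _ _)
      rw [le_div_iff₀ (by positivity)] at h1
      linarith
    · have h1 := ((min_le_right (min (cb / 2) (1 / 2)) (min (δ / SS) (min (1 / (2 * Λ))
        (1 / (32 * (|s₀| + 1 + 3 * |K|)))))).trans (min_le_right _ _)).trans (min_le_right _ _)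
      rw [le_div_iff₀ (by positivity)] at h1
      linarith
  obtain ⟨ε, hε, hε1, hε8⟩ : ∃ ε : ℝ, 0 < ε ∧ ε ≤ 1 ∧ 8 * ε ≤ δ * c₀ := by
    refine ⟨min 1 (δ * c₀ / 8), by positivity, min_le_left _ _, ?_⟩
    have := min_le_right 1 (δ * c₀ / 8)
    linarith
  obtain ⟨ρ, hρ, hCmp⟩ := exists_rho hU hc₀ hε
  obtain ⟨ρ', hρ', hcone'⟩ := hcone ε hε
  obtain ⟨r₀, hr₀, hst⟩ := hstart c₀ hc₀ Λ
  have hdrop : ∀ u ∈ S, ∃ i < J, ∃ y₁ r₁ : ℝ, 0 < r₁ ∧ ∀ y r : ℝ, |y - y₁| < r₁ → 0 < r →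
      r < r₁ → Win b u (P u).im (c u) y r (s₀ - 8 * δ * i) c₀ Λ ⊆ M i ∧
        ¬ Win b u (P u).im (c u) y r (s₀ - 8 * δ * (i + 1 : ℕ) + 4 * δ) c₀ Λ ⊆ M (i + 1) := by
    intro u hu
    obtain ⟨hcu, hku⟩ := hT u hu
    have hKabs := le_abs_self K
    have hKabs' := neg_abs_le K
    have hmin : 0 < min ρ ρ' := lt_min hρ hρ'
    have hsK : 1 / 2 ≤ s₀ - 8 * δ * J - K := by linarith
    obtain ⟨i, hi, y₁, r₁, h1, -, h2⟩ := drop J M hM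
      (fun i hi => cmp_mono (hCmp i hi u hu) (min_le_left ρ ρ')) (s₀ := s₀) (δ := δ) (Λ := Λ)
      (S := SS) (K := K) hmin hbm (hmP u hu) hδ hc₀ hc2 hε.le hε8 (by rw [hSSd]; linarith) hc3
      (by linarith) hc4 (by linarith) (by
        have h3 : |s₀ - 8 * δ * J + 3 * K| ≤ |s₀| + 1 + 3 * |K| := by
          rw [abs_le]
          constructor
          · have := neg_abs_le s₀
            linarith
          · have := le_abs_self s₀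
            have : 0 ≤ 8 * δ * J := by linarith
            linarith
        have h4 := mul_le_mul_of_nonneg_right h3 hc₀.le
        linarith) (by rw [hSSd]; nlinarith) (y₀ := 0) hr₀
      (fun y r _ h4 h5 => hst u hu y r h4 h5)
      (fun t w h4 h5 h6 h7 => hcone' u hu t w (h4.trans_le (min_le_right _ _))
        (h5.trans_le (min_le_right _ _)) h6 h7)
      (fun y e _ he => hwall u hu y e he)
    exact ⟨i, hi, y₁, r₁, h1, h2⟩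
  -- countable pieces
  set E : ℕ × ℚ × ℚ → Set ℝ := fun p => {u | u ∈ S ∧ p.1 < J ∧ (0 : ℝ) < p.2.2 ∧
    ∀ y r : ℝ, |y - p.2.1| < p.2.2 → 0 < r → r < p.2.2 →
      Win b u (P u).im (c u) y r (s₀ - 8 * δ * p.1) c₀ Λ ⊆ M p.1 ∧
      ¬ Win b u (P u).im (c u) y r (s₀ - 8 * δ * (p.1 + 1 : ℕ) + 4 * δ) c₀ Λ ⊆ M (p.1 + 1)} with hE
  have hcov : S ⊆ ⋃ p, E p := by
    intro u hu
    obtain ⟨i, hi, y₁, r₁, h1, h2⟩ := hdrop u hu
    obtain ⟨a, ha1, ha2⟩ := exists_rat_btwn (show y₁ - r₁ / 4 < y₁ by linarith)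
    obtain ⟨d, hd1, hd2⟩ := exists_rat_btwn (show 0 < r₁ / 2 by linarith)
    refine mem_iUnion.2 ⟨(i, a, d), hu, hi, hd1, fun y r h3 h4 h5 => ?_⟩
    simp only at h3 h5
    refine h2 y r ?_ h4 (by linarith)
    have h6 := abs_lt.1 h3
    rw [abs_lt]
    constructor <;> linarith
  obtain ⟨p, hp⟩ : ∃ p, volume (E p) ≠ 0 := by
    by_contra hcon
    push Not at hcon
    exact h0 (measure_mono_null hcov (measure_iUnion_null hcon))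
  obtain ⟨i, a, d⟩ := p
  have hne : (E (i, a, d)).Nonempty := by
    by_contra h
    rw [not_nonempty_iff_eq_empty] at h
    exact hp (by rw [h]; exact measure_empty)
  obtain ⟨u₁, -, hi, hd, -⟩ := hne
  simp only at hi hd
  have hES : E (i, a, d) ⊆ S := fun u hu => hu.1
  have hiJ : (i : ℝ) ≤ J := by exact_mod_cast hi.le
  have hi0 : (0 : ℝ) ≤ i := Nat.cast_nonneg i
  have hδi : δ * i ≤ δ * J := mul_le_mul_of_nonneg_left hiJ hδ.le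
  have hδi0 : 0 ≤ δ * i := by positivity
  -- nearby labels
  have hnear : ∀ u ∈ S ∩ closure (E (i, a, d)), ∀ κ > 0, ∃ v ∈ E (i, a, d), |v - u| < κ ∧
      |(P v).im - (P u).im| < κ ∧ |c v - c u| < κ := by
    rintro u ⟨hu, huc⟩ κ hκ
    obtain ⟨d₁, hd₁, h1⟩ := Metric.continuousOn_iff.1 cR u hu κ hκ
    obtain ⟨d₂, hd₂, h2⟩ := Metric.continuousOn_iff.1 cc u hu κ hκ
    obtain ⟨v, hv, hvu⟩ := Metric.mem_closure_iff.1 huc (min κ (min d₁ d₂)) (by positivity)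
    rw [dist_comm] at hvu
    have h3 := h1 v (hES hv) (hvu.trans_le ((min_le_right _ _).trans (min_le_left _ _)))
    have h4 := h2 v (hES hv) (hvu.trans_le ((min_le_right _ _).trans (min_le_right _ _)))
    rw [Real.dist_eq] at h3 h4 hvu
    exact ⟨v, hv, hvu.trans_le (min_le_left _ _), h3, h4⟩
  refine ⟨i, hi, S ∩ closure (E (i, a, d)), inter_subset_left, hS.inter_right isClosed_closure,
    fun h => hp (measure_mono_null (subset_inter hES subset_closure) h), a - d, a + d,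
    s₀ - 8 * δ * i - 2 * δ, s₀ - 8 * δ * i - 3 * δ, by linarith, by linarith,
    ⟨c₀ / 2, Λ, d, by positivity, hd, ?_⟩, ?_⟩
  · -- no windows in `M (i + 1)`
    intro u hu y hy1 hy2 r hr hrd hwin
    obtain ⟨κ, hκ, hκr, hκs⟩ : ∃ κ : ℝ, 0 < κ ∧ κ ≤ r / 2 ∧ κ * (1 + r + T) ≤ δ * (c₀ / 2 * r) := by
      refine ⟨min (r / 2) (δ * (c₀ / 2 * r) / (1 + r + T)), by positivity, min_le_left _ _, ?_⟩
      have h1 := min_le_right (r / 2) (δ * (c₀ / 2 * r) / (1 + r + T))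
      rwa [le_div_iff₀ (by positivity)] at h1
    obtain ⟨v, hv, hv1, hv2, hv3⟩ := hnear u hu κ hκ
    have hcu := (hT u hu.1).1
    have h1 := win_label (b := b) (u := u) (u' := v) (R₀ := (P u).im) (R₁ := (P v).im) (c := c u)
      (c' := c v) (y := y) (y' := y) (r := r) (s := s₀ - 8 * δ * i - 3 * δ) (δ := δ)
      (c₀ := c₀ / 2) (Λ := Λ) hr hδ.le (by positivity) (hv1.le.trans hκr)
      (by rw [sub_self, abs_zero]; positivity) (by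
        have e1 : |c v - c u| * r ≤ κ * r := mul_le_mul_of_nonneg_right hv3.le hr.le
        have e2 : |c u| * |v - u| ≤ T * κ := mul_le_mul hcu hv1.le (abs_nonneg _) hT0
        have e3 : κ * (1 + r + T) = κ + κ * r + T * κ := by ring
        linarith)
    have h2 : ¬ Win b v (P v).im (c v) y (r / 2) (s₀ - 8 * δ * (i + 1 : ℕ) + 4 * δ) c₀ Λ ⊆
        M (i + 1) := (hv.2.2.2 y (r / 2) (by
      show |y - a| < d
      rw [abs_lt]; constructor <;> linarith) (by linarith) (by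
      show r / 2 < d
      linarith)).2
    apply h2
    have e1 : s₀ - 8 * δ * ((i + 1 : ℕ) : ℝ) + 4 * δ = s₀ - 8 * δ * i - 3 * δ - δ := by
      push_cast; ring
    have e2 : 2 * (c₀ / 2) = c₀ := by ring
    rw [e1]
    rw [e2] at h1
    exact h1.trans hwin
  · -- windows in `M i`
    intro u hu y hy1 hy2 δ' hδ'
    obtain ⟨ρ₀, hρ₀, hsp'⟩ := hsp (2 * c₀) (by positivity) hc1 Λ hΛb
    obtain ⟨r, hr, hrd, hrρ⟩ : ∃ r : ℝ, 0 < r ∧ r < d ∧ r < ρ₀ := by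
      refine ⟨min (d : ℝ) ρ₀ / 2, by positivity, ?_, ?_⟩
      · have := min_le_left (d : ℝ) ρ₀
        linarith
      · have := min_le_right (d : ℝ) ρ₀
        linarith
    obtain ⟨κ, hκ, hκr, hκs⟩ : ∃ κ : ℝ, 0 < κ ∧ κ ≤ r / 2 ∧ κ * (1 + r + T) ≤ δ * (c₀ * r) := by
      refine ⟨min (r / 2) (δ * (c₀ * r) / (1 + r + T)), by positivity, min_le_left _ _, ?_⟩
      have h1 := min_le_right (r / 2) (δ * (c₀ * r) / (1 + r + T))
      rwa [le_div_iff₀ (by positivity)] at h1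
    obtain ⟨v, hv, hv1, hv2, hv3⟩ := hnear u hu κ hκ
    have hcv := (hT v hv.1).1
    have h1 := win_label (b := b) (u := v) (u' := u) (R₀ := (P v).im) (R₁ := (P u).im) (c := c v)
      (c' := c u) (y := y) (y' := y) (r := r) (s := s₀ - 8 * δ * i) (δ := δ)
      (c₀ := c₀) (Λ := Λ) hr hδ.le hc₀ (by rw [abs_sub_comm]; exact hv1.le.trans hκr)
      (by rw [sub_self, abs_zero]; positivity) (by
        rw [abs_sub_comm (P u).im, abs_sub_comm (c u), abs_sub_comm u]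
        have e1 : |c v - c u| * r ≤ κ * r := mul_le_mul_of_nonneg_right hv3.le hr.le
        have e2 : |c v| * |v - u| ≤ T * κ := mul_le_mul hcv hv1.le (abs_nonneg _) hT0
        have e3 : κ * (1 + r + T) = κ + κ * r + T * κ := by ring
        linarith)
    have h2 : Win b v (P v).im (c v) y r (s₀ - 8 * δ * i) c₀ Λ ⊆ M i := (hv.2.2.2 y r (by
      show |y - a| < d
      rw [abs_lt]; constructor <;> linarith) hr hrd).1
    have h12 := h1.trans h2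
    have hsl : |s₀ - 8 * δ * i - δ| ≤ |s₀| + 2 := by
      have e4 : 8 * δ * (i : ℝ) = 8 * (δ * i) := by ring
      have e5 : 8 * δ * (J : ℝ) = 8 * (δ * J) := by ring
      rw [e5] at hδJ
      rw [e4]
      have e6 := neg_abs_le s₀
      have e7 := le_abs_self s₀
      rw [abs_le]
      constructor <;> linarith
    have hr2 : 0 < r / 2 := by positivity
    have hr3 : r / 2 < ρ₀ := by linarith
    have h3 := hsp' i hi.le (s₀ - 8 * δ * i - δ) hsl u hu.1 y (r / 2) hr2 hr3 h12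
    have h4 := h3.mono (s' := s₀ - 8 * δ * i - 2 * δ - δ') (by linarith)
    obtain ⟨d', hd', h5⟩ := h4
    refine ⟨d', hd', fun c₂ hc₂ Λ₂ => ?_⟩
    obtain ⟨r₂, hr₂, h6⟩ := h5 c₂ hc₂ Λ₂
    exact ⟨r₂, hr₂, fun u' hu' => h6 u' hu'.1⟩

end Vale.Agent.P097.H525
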